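import Vale.Agent.P369.H183.Rec
import Vale.Agent.P369.H326.Phys2
import Vale.Agent.P369.H326.Phys6

/-!
P369 (helper183), FD-END: finite density matrices that satisfy the thermal recursion approximately
converge to the thermal state entrywise, and their entropies are asymptotically at least `n g(M)`.
-/

set_option linter.all false

namespace Vale.Agent.P369.H183

open Filter Matrix
open Vale.Agent.P369 (Conf up down)
open Vale.Agent.P369V (ent)
open Vale.Agent.P369A
open Vale.Agent.P369T (th)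
open Vale.Agent.P369N (thv)
open scoped Topology ComplexOrder

noncomputable section

variable {n : ℕ}

/-- extension by zero of a matrix indexed by the configurations with at most `Y` photons -/
def ext0 {Y : ℕ} (A : Matrix (Ct n Y) (Ct n Y) ℂ) : Conf n → Conf n → ℂ := fun x y =>
  if h : (∑ j, x j ≤ Y) ∧ (∑ j, y j ≤ Y) then A ⟨x, h.1⟩ ⟨y, h.2⟩ else 0

theorem ext0_of_le {Y : ℕ} (A : Matrix (Ct n Y) (Ct n Y) ℂ) {x y : Conf n}
    (hx : ∑ j, x j ≤ Y) (hy : ∑ j, y j ≤ Y) : ext0 A x y = A ⟨x, hx⟩ ⟨y, hy⟩ := by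
  unfold ext0
  rw [dif_pos ⟨hx, hy⟩]

theorem ext0_apply {Y : ℕ} (A : Matrix (Ct n Y) (Ct n Y) ℂ) (x y : Ct n Y) :
    ext0 A x.1 y.1 = A x y := ext0_of_le A x.2 y.2

theorem ext0_herm {Y : ℕ} {A : Matrix (Ct n Y) (Ct n Y) ℂ} (hA : A.IsHermitian) (x y : Conf n) :
    star (ext0 A x y) = ext0 A y x := by
  unfold ext0
  by_cases h : (∑ j, x j ≤ Y) ∧ (∑ j, y j ≤ Y)
  · rw [dif_pos h, dif_pos h.symm]
    exact hA.apply _ _
  · rw [dif_neg h, dif_neg fun h' => h h'.symm, star_zero]

/-- the principal block with at most `X ≤ Y` photons -/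
theorem cut_ext0 {Y X : ℕ} (h : X ≤ Y) (A : Matrix (Ct n Y) (Ct n Y) ℂ) :
    P369A.cut X (ext0 A) = A.submatrix (ctI h) (ctI h) := by
  ext x y
  exact ext0_of_le A (x.2.trans h) (y.2.trans h)

/-- the thermal state of mean photon number `M` -/
def tauM (n : ℕ) (M : ℝ) (x y : Conf n) : ℂ := if x = y then ((thv (fun _ => M) x : ℝ) : ℂ) else 0

theorem thv_eq {M : ℝ} (hM : 0 < M) (x : Conf n) :
    thv (fun _ => M) x = (M / (M + 1)) ^ (∑ j, x j) * ((M + 1) ^ n)⁻¹ := by
  unfold thv th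
  rw [← Finset.prod_pow_eq_pow_sum, ← inv_pow]
  have : ((M + 1)⁻¹ : ℝ) ^ n = ∏ _j : Fin n, (M + 1)⁻¹ := by simp
  rw [this, ← Finset.prod_mul_distrib]
  refine Finset.prod_congr rfl fun j _ => ?_
  have hM1 : (M + 1 : ℝ) ≠ 0 := by positivity
  rw [div_pow, pow_succ]
  field_simp

/-- entrywise convergence to the thermal state, along any filter -/
theorem tendsto_tauM {α : Type*} {F : Filter α} [F.NeBot] {M E : ℝ} (hM : 0 < M)
    {s : α → Conf n → Conf n → ℂ} (hherm : ∀ a x y, star (s a x y) = s a y x)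
    (hrec : ∀ (j : Fin n) (k l : Conf n), Tendsto (fun a =>
      (((M + 1) * Real.sqrt ((k j : ℝ) + 1) : ℝ) : ℂ) * s a (up k j) l -
      ((M * Real.sqrt (l j : ℝ) : ℝ) : ℂ) * s a k (down l j)) F (𝓝 0))
    (hle : ∀ X : ℕ, ∀ᶠ a in F, trX (s a) X ≤ 1)
    (hge : ∀ X : ℕ, ∀ᶠ a in F, 1 - E / (X + 1) ≤ trX (s a) X) (x y : Conf n) :
    Tendsto (fun a => s a x y) F (𝓝 (tauM n M x y)) := by
  have hM1 : (0 : ℝ) < M + 1 := by linarith
  have hrec' := tendsto_of_rec hM hherm hrec
  set c : ℝ := (M + 1) ^ n with hc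
  have hc0 : 0 < c := by positivity
  set u : α → ℝ := fun a => c * (s a 0 0).re with hu
  -- the diagonal
  have hdiag : ∀ x : Conf n, Tendsto (fun a => (s a x x).re - thv (fun _ => M) x * u a) F (𝓝 0) := by
    intro x
    have h := (Complex.continuous_re.tendsto (0 : ℂ)).comp (hrec' _ x x rfl)
    rw [Complex.zero_re] at h
    refine h.congr fun a => ?_
    simp only [Function.comp, if_true, Complex.sub_re, Complex.re_ofReal_mul]
    rw [thv_eq hM, hu]
    simp only
    rw [← hc]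
    field_simp
  have hsum : ∀ X : ℕ, Tendsto (fun a => trX (s a) X - (∑ x : Ct n X, thv (fun _ => M) x.1) * u a)
      F (𝓝 0) := by
    intro X
    have h := tendsto_finsetSum Finset.univ fun (x : Ct n X) _ => hdiag x.1
    rw [Finset.sum_const_zero] at h
    refine h.congr fun a => ?_
    rw [Finset.sum_sub_distrib, Finset.sum_mul]
    rfl
  have hT : Tendsto (fun X : ℕ => ∑ x : Ct n X, thv (fun _ => M) x.1) atTop (𝓝 1) :=
    tendsto_sum_Ct (P369N.thv_isProb fun _ => hM.le).2
  have hthv0 : ∀ x : Conf n, 0 ≤ thv (fun _ => M) x := (P369N.thv_isProb fun _ => hM.le).1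
  -- the vacuum element
  have hu1 : Tendsto u F (𝓝 1) := by
    rw [Metric.tendsto_nhds]
    intro ε hε
    have hE : Tendsto (fun X : ℕ => E / ((X : ℝ) + 1)) atTop (𝓝 0) := by
      have h1 := (tendsto_one_div_add_atTop_nhds_zero_nat (𝕜 := ℝ)).const_mul E
      rw [mul_zero] at h1
      exact h1.congr fun L => by ring
    -- choose the cutoff
    set δ : ℝ := min (1 / 4) (ε / 8) with hδ
    have hδ0 : 0 < δ := lt_min (by norm_num) (by positivity)
    have hδ4 : δ ≤ 1 / 4 := min_le_left _ _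
    have hδ8 : δ ≤ ε / 8 := min_le_right _ _
    obtain ⟨X, hX1, hX2⟩ := ((hT.eventually (eventually_gt_nhds (show 1 - δ < 1 by linarith))).and
      (hE.eventually (eventually_lt_nhds hδ0))).exists
    have hXle : ∑ x : Ct n X, thv (fun _ => M) x.1 ≤ 1 := by
      rw [← sum_ctF]
      exact sum_le_hasSum _ (fun x _ => hthv0 x) (P369N.thv_isProb fun _ => hM.le).2
    set t : ℝ := ∑ x : Ct n X, thv (fun _ => M) x.1 with ht
    have h3 : ∀ᶠ a in F, |trX (s a) X - t * u a| < δ := by
      have := (Metric.tendsto_nhds.1 (hsum X)) δ hδ0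
      filter_upwards [this] with a ha
      rw [Real.dist_eq, sub_zero] at ha
      exact ha
    filter_upwards [h3, hle X, hge X] with a h4 h5 h6
    rw [Real.dist_eq]
    rw [abs_lt] at h4 ⊢
    have ht34 : 3 / 4 < t := by linarith
    have h7 : t * u a < 1 + δ := by linarith [h4.1]
    have h8 : 1 - 2 * δ < t * u a := by linarith [h4.2]
    constructor
    · -- lower bound
      have : 1 - 2 * δ < u a := by
        by_contra hcon
        push Not at hcon
        have h9 : t * u a ≤ t * (1 - 2 * δ) := mul_le_mul_of_nonneg_left hcon (by linarith)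
        have h10 : t * (1 - 2 * δ) ≤ 1 * (1 - 2 * δ) :=
          mul_le_mul_of_nonneg_right hXle (by linarith)
        linarith
      linarith
    · have : u a < 1 + 4 * δ := by
        by_contra hcon
        push Not at hcon
        have h9 : t * (1 + 4 * δ) ≤ t * u a := mul_le_mul_of_nonneg_left hcon (by linarith)
        nlinarith
      linarith
  -- the vacuum element is real
  have h00 : ∀ a, s a 0 0 = (((u a) / c : ℝ) : ℂ) := by
    intro a
    have him : (s a 0 0).im = 0 := by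
      have := congrArg Complex.im (hherm a 0 0)
      rw [Complex.star_def, Complex.conj_im] at this
      linarith
    rw [hu]
    apply Complex.ext
    · rw [Complex.ofReal_re]
      field_simp
    · rw [Complex.ofReal_im, him]
  have h := hrec' _ x y rfl
  unfold tauM
  by_cases hxy : x = y
  · subst hxy
    simp only [if_true] at h ⊢
    have h2 : Tendsto (fun a => (((M / (M + 1)) ^ (∑ j, x j) : ℝ) : ℂ) * s a 0 0) F
        (𝓝 ((thv (fun _ => M) x : ℝ) : ℂ)) := by
      have h3 : Tendsto (fun a => (((M / (M + 1)) ^ (∑ j, x j) * (u a / c) : ℝ) : ℂ)) F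
          (𝓝 (((M / (M + 1)) ^ (∑ j, x j) * (1 / c) : ℝ) : ℂ)) :=
        (Complex.continuous_ofReal.tendsto _).comp ((hu1.div_const c).const_mul _)
      rw [thv_eq hM, ← hc, ← one_div]
      refine h3.congr fun a => ?_
      rw [h00 a, ← Complex.ofReal_mul]
    have h4 := h.add h2
    rw [zero_add] at h4
    refine h4.congr fun a => ?_
    ring
  · simp only [if_neg hxy, sub_zero] at h ⊢
    exact h

theorem cut_tauM (M : ℝ) (X : ℕ) : P369A.cut X (tauM n M) =
    Matrix.diagonal fun x : Ct n X => ((thv (fun _ => M) x.1 : ℝ) : ℂ) := by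
  ext x y
  unfold P369A.cut tauM
  by_cases h : x = y
  · subst h
    rw [if_pos rfl, Matrix.diagonal_apply_eq]
  · rw [if_neg (fun h' => h (Subtype.ext h')), Matrix.diagonal_apply_ne _ h]

theorem ent_cut_tauM (M : ℝ) (X : ℕ) :
    ent (P369A.cut X (tauM n M)) = ∑ x : Ct n X, Real.negMulLog (thv (fun _ => M) x.1) := by
  rw [cut_tauM, P369N.ent_diagonal]

/-- the entropies of the truncations of the thermal state converge to `n g(M)` -/
theorem tendsto_ent_cut_tauM {M : ℝ} (hM : 0 < M) :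
    Tendsto (fun X => ent (P369A.cut X (tauM n M))) atTop (𝓝 (n * P369.g M)) := by
  have h1 : HasSum (fun x : Conf n => Real.negMulLog (thv (fun _ => M) x)) (n * P369.g M) := by
    have hs : Summable fun x : Conf n => Real.negMulLog (thv (fun _ => M) x) := by
      have hp := P369N.thv_isProb (n := n) (s := fun _ => M) fun _ => hM.le
      refine P369.summable_negMulLog_of_energy hp.1 (fun x => hp.le_one x)
        (E := fun x : Conf n => ∑ j, (x j : ℝ)) ?_ (P369.summable_exp_tot n)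
      exact P369N.thv_energy fun _ => hM.le
    have h2 := P369N.Hs_thv (n := n) (s := fun _ => M) fun _ => hM.le
    have h3 := hs.hasSum
    unfold P369.Hs at h2
    rw [h2] at h3
    simpa using h3
  refine (tendsto_sum_Ct h1).congr fun X => ?_
  rw [ent_cut_tauM]

/-- the tail of a density matrix of bounded energy -/
theorem trX_ext0_ge {Y : ℕ} {A : Matrix (Ct n Y) (Ct n Y) ℂ} (hA : A.PosSemidef)
    (ht : A.trace = 1) {E : ℝ} (hE : ∑ x : Ct n Y, (∑ j, (x.1 j : ℝ)) * (A x x).re ≤ E) {X : ℕ}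
    (hX : X ≤ Y) : 1 - E / (X + 1) ≤ trX (ext0 A) X := by
  have hX0 : (0 : ℝ) < (X : ℝ) + 1 := by positivity
  have hd : ∀ x : Ct n Y, 0 ≤ (A x x).re := fun x => (Complex.le_def.1 hA.diag_nonneg).1
  have h1 : ∑ x : Ct n Y, (A x x).re = 1 := by
    have := congrArg Complex.re ht
    rw [Matrix.trace, Complex.re_sum, Complex.one_re] at this
    exact this
  set G : Conf n → ℝ := fun x => (ext0 A x x).re with hG
  have hG0 : ∀ x, 0 ≤ G x := by
    intro x
    simp only [hG]
    unfold ext0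
    split_ifs with h
    · exact hd _
    · simp
  have e1 : ∑ x ∈ ctF n Y, G x = 1 := by
    rw [sum_ctF, ← h1]
    exact Finset.sum_congr rfl fun x _ => by simp only [hG, ext0_apply]
  have e2 : ∑ x ∈ ctF n Y, (∑ j, (x j : ℝ)) * G x ≤ E := by
    rw [sum_ctF]
    refine le_trans (le_of_eq ?_) hE
    exact Finset.sum_congr rfl fun x _ => by simp only [hG, ext0_apply]
  have e3 : trX (ext0 A) X = ∑ x ∈ ctF n X, G x := by
    rw [sum_ctF]
    rfl
  have hsub : ctF n X ⊆ ctF n Y := ctF_mono hX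
  have e4 : ∑ x ∈ ctF n Y \ ctF n X, G x = 1 - trX (ext0 A) X := by
    rw [e3, ← e1, ← Finset.sum_sdiff hsub]
    ring
  have h2 : (∑ x ∈ ctF n Y \ ctF n X, G x) * ((X : ℝ) + 1) ≤ E := by
    rw [Finset.sum_mul]
    refine le_trans ?_ e2
    calc ∑ x ∈ ctF n Y \ ctF n X, G x * ((X : ℝ) + 1)
        ≤ ∑ x ∈ ctF n Y \ ctF n X, (∑ j, (x j : ℝ)) * G x := by
          refine Finset.sum_le_sum fun x hx => ?_
          have h3 : ¬ ∑ j, x j ≤ X := fun h4 => (Finset.mem_sdiff.1 hx).2 (mem_ctF.2 h4)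
          have h4 : (X : ℝ) + 1 ≤ ∑ j, (x j : ℝ) := by
            have : X + 1 ≤ ∑ j, x j := by omega
            exact_mod_cast this
          rw [mul_comm]
          exact mul_le_mul_of_nonneg_right h4 (hG0 x)
      _ ≤ ∑ x ∈ ctF n Y, (∑ j, (x j : ℝ)) * G x :=
          Finset.sum_le_sum_of_subset_of_nonneg Finset.sdiff_subset fun x _ _ =>
            mul_nonneg (Finset.sum_nonneg fun _ _ => Nat.cast_nonneg _) (hG0 x)
  rw [e4] at h2
  have h5 : 1 - trX (ext0 A) X ≤ E / (X + 1) := by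
    rwa [le_div_iff₀ hX0]
  linarith

theorem trX_ext0_le {Y : ℕ} {A : Matrix (Ct n Y) (Ct n Y) ℂ} (hA : A.PosSemidef)
    (ht : A.trace = 1) {X : ℕ} (hX : X ≤ Y) : trX (ext0 A) X ≤ 1 := by
  have hd : ∀ x : Ct n Y, 0 ≤ (A x x).re := fun x => (Complex.le_def.1 hA.diag_nonneg).1
  have h1 : ∑ x : Ct n Y, (A x x).re = 1 := by
    have := congrArg Complex.re ht
    rw [Matrix.trace, Complex.re_sum, Complex.one_re] at this
    exact this
  have e1 : ∑ x ∈ ctF n Y, (ext0 A x x).re = 1 := by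
    rw [sum_ctF, ← h1]
    exact Finset.sum_congr rfl fun x _ => by simp only [ext0_apply]
  have hG0 : ∀ x, 0 ≤ (ext0 A x x).re := by
    intro x
    unfold ext0
    split_ifs with h
    · exact hd _
    · simp
  rw [← e1]
  unfold trX
  rw [← sum_ctF X (fun x => (ext0 A x x).re)]
  exact Finset.sum_le_sum_of_subset_of_nonneg (ctF_mono hX) fun x _ _ => hG0 x

/-- FD-END: entrywise convergence to the thermal state -/
theorem fd_end_entry {α : Type*} {F : Filter α} [F.NeBot] {M E : ℝ} (hM : 0 < M) {Y : α → ℕ}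
    (hY : Tendsto Y F atTop) {C : ∀ a, Matrix (Ct n (Y a)) (Ct n (Y a)) ℂ}
    (hC : ∀ a, (C a).PosSemidef) (ht : ∀ a, (C a).trace = 1)
    (hE : ∀ a, ∑ x : Ct n (Y a), (∑ j, (x.1 j : ℝ)) * (C a x x).re ≤ E)
    (hrec : ∀ (j : Fin n) (k l : Conf n), Tendsto (fun a =>
      (((M + 1) * Real.sqrt ((k j : ℝ) + 1) : ℝ) : ℂ) * ext0 (C a) (up k j) l -
      ((M * Real.sqrt (l j : ℝ) : ℝ) : ℂ) * ext0 (C a) k (down l j)) F (𝓝 0)) (x y : Conf n) :
    Tendsto (fun a => ext0 (C a) x y) F (𝓝 (tauM n M x y)) := by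
  refine tendsto_tauM (E := E) hM (fun a => ext0_herm (hC a).1) hrec ?_ ?_ x y
  · intro X
    filter_upwards [hY.eventually_ge_atTop X] with a ha
    exact trX_ext0_le (hC a) (ht a) ha
  · intro X
    filter_upwards [hY.eventually_ge_atTop X] with a ha
    exact trX_ext0_ge (hC a) (ht a) (hE a) ha

/-- FD-END: the entropies are asymptotically at least `n g(M)` -/
theorem fd_end {α : Type*} {F : Filter α} [F.NeBot] [F.IsCountablyGenerated] {M E : ℝ} (hM : 0 < M)
    {Y : α → ℕ} (hY : Tendsto Y F atTop) {C : ∀ a, Matrix (Ct n (Y a)) (Ct n (Y a)) ℂ}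
    (hC : ∀ a, (C a).PosSemidef) (ht : ∀ a, (C a).trace = 1)
    (hE : ∀ a, ∑ x : Ct n (Y a), (∑ j, (x.1 j : ℝ)) * (C a x x).re ≤ E)
    (hrec : ∀ (j : Fin n) (k l : Conf n), Tendsto (fun a =>
      (((M + 1) * Real.sqrt ((k j : ℝ) + 1) : ℝ) : ℂ) * ext0 (C a) (up k j) l -
      ((M * Real.sqrt (l j : ℝ) : ℝ) : ℂ) * ext0 (C a) k (down l j)) F (𝓝 0)) {ε : ℝ}
    (hε : 0 < ε) : ∀ᶠ a in F, n * P369.g M - ε ≤ ent (C a) := by
  have hent := fd_end_entry hM hY hC ht hE hrec
  have hp := P369N.thv_isProb (n := n) (s := fun _ => M) fun _ => hM.le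
  have hT : Tendsto (fun X : ℕ => ∑ x : Ct n X, thv (fun _ => M) x.1) atTop (𝓝 1) :=
    tendsto_sum_Ct hp.2
  obtain ⟨X, hX1, hX2⟩ := (((tendsto_ent_cut_tauM (n := n) hM).eventually
    (eventually_gt_nhds (show n * P369.g M - ε / 4 < n * P369.g M by linarith))).and
    (hT.eventually (eventually_gt_nhds (show 1 - ε / 4 < 1 by linarith)))).exists
  -- blocks, along a sequence
  by_contra hcon
  rw [not_eventually] at hcon
  obtain ⟨v, hv, hv'⟩ := exists_seq_forall_of_frequently
    (hcon.and_eventually (hY.eventually_ge_atTop X))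
  have hcut : Tendsto (fun m => P369A.cut X (ext0 (C (v m)))) atTop (𝓝 (P369A.cut X (tauM n M))) := by
    refine tendsto_pi_nhds.2 fun x => tendsto_pi_nhds.2 fun y => ?_
    exact (hent x.1 y.1).comp hv
  have hpsd : ∀ m, (P369A.cut X (ext0 (C (v m)))).PosSemidef := fun m => by
    rw [cut_ext0 (hv' m).2]
    exact (hC (v m)).submatrix _
  have hpt : (P369A.cut X (tauM n M)).PosSemidef := by
    rw [cut_tauM]
    refine Matrix.PosSemidef.diagonal fun x => ?_
    exact Complex.zero_le_real.2 (hp.1 x.1)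
  have hE1 := P369V.g4_tendsto_ent hpsd hpt hcut
  have htr : Tendsto (fun m => trX (ext0 (C (v m))) X) atTop
      (𝓝 (∑ x : Ct n X, thv (fun _ => M) x.1)) := by
    unfold trX
    refine tendsto_finsetSum _ fun x _ => ?_
    have h := (Complex.continuous_re.tendsto _).comp ((hent x.1 x.1).comp hv)
    simp only [tauM, if_true, Complex.ofReal_re] at h
    exact h
  obtain ⟨m, h3, h4⟩ := ((hE1.eventually (eventually_gt_nhds
    (show ent (P369A.cut X (tauM n M)) - ε / 4 < ent (P369A.cut X (tauM n M)) by linarith))).and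
    (htr.eventually (eventually_gt_nhds hX2))).exists
  have h5 := ent_submatrix_le (hC (v m)) (by rw [ht]; simp) (ctI_inj (hv' m).2)
  rw [← cut_ext0 (hv' m).2, ← trX_eq, ht, Complex.one_re] at h5
  refine (hv' m).1 ?_
  linarith

end

end Vale.Agent.P369.H183
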