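import Vale.Agent.P369.Setup

/-!
P369 (helper183): families of kernels that satisfy the thermal recursion approximately converge
entrywise to the thermal kernel, up to the vacuum element.
-/

namespace Vale.Agent.P369.H183

open Filter
open Vale.Agent.P369 (Conf up down)
open scoped Topology ComplexOrder

noncomputable section

variable {n : ℕ}

theorem up_self (k : Conf n) (j : Fin n) : up k j j = k j + 1 := by simp [up]

theorem down_self (k : Conf n) (j : Fin n) : down k j j = k j - 1 := by simp [down]

theorem up_ne (k : Conf n) {i j : Fin n} (h : i ≠ j) : up k j i = k i := by simp [up, h]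

theorem down_ne (k : Conf n) {i j : Fin n} (h : i ≠ j) : down k j i = k i := by simp [down, h]

theorem up_down {x : Conf n} {j : Fin n} (h : 1 ≤ x j) : up (down x j) j = x := by
  funext i
  by_cases hi : i = j
  · subst hi
    rw [up_self, down_self]
    omega
  · rw [up_ne _ hi, down_ne _ hi]

theorem down_up (x : Conf n) (j : Fin n) : down (up x j) j = x := by
  funext i
  by_cases hi : i = j
  · subst hi
    rw [down_self, up_self]
    omega
  · rw [down_ne _ hi, up_ne _ hi]

theorem sum_up (k : Conf n) (j : Fin n) : ∑ i, up k j i = ∑ i, k i + 1 := by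
  rw [← Finset.add_sum_erase _ _ (Finset.mem_univ j),
    ← Finset.add_sum_erase Finset.univ k (Finset.mem_univ j), up_self]
  have : ∑ i ∈ Finset.univ.erase j, up k j i = ∑ i ∈ Finset.univ.erase j, k i :=
    Finset.sum_congr rfl fun i hi => up_ne k (Finset.ne_of_mem_erase hi)
  rw [this]
  ring

/-- the approximate thermal recursion forces the thermal form relative to the vacuum element -/
theorem tendsto_of_rec {α : Type*} {F : Filter α} {M : ℝ} (hM : 0 < M)
    {s : α → Conf n → Conf n → ℂ} (hherm : ∀ a x y, star (s a x y) = s a y x)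
    (hrec : ∀ (j : Fin n) (k l : Conf n), Tendsto (fun a =>
      (((M + 1) * Real.sqrt ((k j : ℝ) + 1) : ℝ) : ℂ) * s a (up k j) l -
      ((M * Real.sqrt (l j : ℝ) : ℝ) : ℂ) * s a k (down l j)) F (𝓝 0)) :
    ∀ (m : ℕ) (x y : Conf n), ∑ i, x i = m → Tendsto (fun a => s a x y -
      (if x = y then (((M / (M + 1)) ^ m : ℝ) : ℂ) * s a 0 0 else 0)) F (𝓝 0) := by
  have hM1 : (0 : ℝ) < M + 1 := by linarith
  -- one step of the recursion, solved for the higher element
  have hstep : ∀ (j : Fin n) (k l : Conf n), Tendsto (fun a => s a (up k j) l -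
      ((M * Real.sqrt (l j : ℝ) / ((M + 1) * Real.sqrt ((k j : ℝ) + 1)) : ℝ) : ℂ) *
        s a k (down l j)) F (𝓝 0) := by
    intro j k l
    have hp : (0 : ℝ) < (M + 1) * Real.sqrt ((k j : ℝ) + 1) :=
      mul_pos hM1 (Real.sqrt_pos.2 (by positivity))
    have h := (hrec j k l).const_mul ((((M + 1) * Real.sqrt ((k j : ℝ) + 1))⁻¹ : ℝ) : ℂ)
    rw [mul_zero] at h
    refine h.congr fun a => ?_
    rw [mul_sub, ← mul_assoc, ← mul_assoc, ← Complex.ofReal_mul, ← Complex.ofReal_mul,
      inv_mul_cancel₀ hp.ne', Complex.ofReal_one, one_mul]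
    congr 3
    rw [div_eq_inv_mul]
  -- elements against the vacuum
  have hvac : ∀ y : Conf n, y ≠ 0 → Tendsto (fun a => s a y 0) F (𝓝 0) := by
    intro y hy
    obtain ⟨j, hj⟩ : ∃ j, y j ≠ 0 := by
      by_contra hcon
      push Not at hcon
      exact hy (funext hcon)
    have hj1 : 1 ≤ y j := Nat.one_le_iff_ne_zero.2 hj
    have h := hstep j (down y j) 0
    rw [up_down hj1] at h
    simpa using h
  have hvac' : ∀ y : Conf n, y ≠ 0 → Tendsto (fun a => s a 0 y) F (𝓝 0) := by
    intro y hy
    have h := (continuous_star.tendsto (0 : ℂ)).comp (hvac y hy)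
    rw [star_zero] at h
    refine h.congr fun a => ?_
    exact hherm a y 0
  intro m
  induction m with
  | zero =>
    intro x y hx
    have hx0 : x = 0 := by
      funext i
      have := (Finset.sum_eq_zero_iff.1 hx) i (Finset.mem_univ i)
      simpa using this
    subst hx0
    by_cases hy : (0 : Conf n) = y
    · subst hy
      simp only [if_true, pow_zero, Complex.ofReal_one, one_mul, sub_self]
      exact tendsto_const_nhds
    · simp only [if_neg hy, sub_zero]
      exact hvac' y (Ne.symm hy)
  | succ m ih =>
    intro x y hx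
    obtain ⟨j, hj⟩ : ∃ j, x j ≠ 0 := by
      by_contra hcon
      push Not at hcon
      have : ∑ i, x i = 0 := Finset.sum_eq_zero fun i _ => hcon i
      omega
    have hj1 : 1 ≤ x j := Nat.one_le_iff_ne_zero.2 hj
    have hk : ∑ i, down x j i = m := by
      have := sum_up (down x j) j
      rw [up_down hj1] at this
      omega
    have h1 := hstep j (down x j) y
    rw [up_down hj1] at h1
    by_cases hyj : 1 ≤ y j
    · have h2 := (ih (down x j) (down y j) hk).const_mul
        ((M * Real.sqrt (y j : ℝ) / ((M + 1) * Real.sqrt ((down x j j : ℝ) + 1)) : ℝ) : ℂ)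
      rw [mul_zero] at h2
      have h3 := h1.add h2
      rw [add_zero] at h3
      refine h3.congr fun a => ?_
      by_cases hxy : x = y
      · subst hxy
        have hd : ((down x j j : ℕ) : ℝ) + 1 = (x j : ℝ) := by
          rw [down_self]
          push_cast [Nat.cast_sub hj1]
          ring
        have hs : Real.sqrt (x j : ℝ) ≠ 0 := by
          rw [Real.sqrt_ne_zero']
          exact_mod_cast hj1
        simp only [if_true]
        rw [hd, show M * Real.sqrt (x j : ℝ) / ((M + 1) * Real.sqrt (x j : ℝ)) = M / (M + 1) by
          field_simp, pow_succ]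
        push_cast
        ring
      · have hne : down x j ≠ down y j := by
          intro h
          apply hxy
          rw [← up_down hj1, h, up_down hyj]
        simp only [if_neg hxy, if_neg hne]
        ring
    · have hy0 : y j = 0 := by omega
      have hxy : x ≠ y := by
        intro h
        rw [h] at hj1
        exact hyj hj1
      simp only [if_neg hxy, sub_zero]
      refine h1.congr fun a => ?_
      rw [hy0]
      simp

end

end Vale.Agent.P369.H183
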