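import Vale.Agent.P369.FD.Stmts
import Vale.Agent.P369.H63.So

/-!
P369 (helper183), FD-END: from the spectral form with weight `1/(x+y)` to matrix elements.
-/

set_option linter.all false

namespace Vale.Agent.P369.H183

open Matrix
open Vale.Agent.P369.FD
open Vale.Agent.P369.H63 (Dg dg_of_herm trace_rot)
open scoped ComplexOrder

noncomputable section

variable {ι : Type} [Fintype ι] [DecidableEq ι]

theorem trace_mul_sq {C U : Matrix ι ι ℂ} {p : ι → ℝ} (h : Dg C U p) (X : Matrix ι ι ℂ) :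
    (C * (X * Xᴴ)).trace.re = ∑ k, ∑ l, p k * ‖(Uᴴ * X * U) k l‖ ^ 2 := by
  have h1 : Uᴴ * C * U = diagonal (fun i => (p i : ℂ)) := by
    have : Uᴴ * C * U = (Uᴴ * U) * diagonal (fun i => (p i : ℂ)) * (Uᴴ * U) := by
      rw [h.eq]; simp only [Matrix.mul_assoc]
    rw [this, h.ct, Matrix.one_mul, Matrix.mul_one]
  have h2 : Uᴴ * (X * Xᴴ) * U = (Uᴴ * X * U) * (Uᴴ * X * U)ᴴ := by
    have : (Uᴴ * X * U) * (Uᴴ * X * U)ᴴ = Uᴴ * X * (U * Uᴴ) * Xᴴ * U := by
      simp only [conjTranspose_mul, conjTranspose_conjTranspose, Matrix.mul_assoc]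
    rw [this, h.tc, Matrix.mul_one]
    simp only [Matrix.mul_assoc]
  rw [trace_rot h.tc, h1, h2, Complex.re_sum]
  refine Finset.sum_congr rfl fun k _ => ?_
  rw [Finset.sum_eq_single k]
  · rw [diagonal_apply_eq, Matrix.mul_apply, Complex.re_ofReal_mul, Complex.re_sum, Finset.mul_sum]
    refine Finset.sum_congr rfl fun l _ => ?_
    rw [conjTranspose_apply, Complex.star_def, Complex.mul_conj, Complex.ofReal_re,
      Complex.normSq_eq_norm_sq]
  · intro l _ hl
    rw [diagonal_apply_ne _ (Ne.symm hl), zero_mul]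
  · intro hk
    exact absurd (Finset.mem_univ _) hk

theorem trace_mul_sq' {C U : Matrix ι ι ℂ} {p : ι → ℝ} (h : Dg C U p) (X : Matrix ι ι ℂ) :
    (C * (Xᴴ * X)).trace.re = ∑ k, ∑ l, p l * ‖(Uᴴ * X * U) k l‖ ^ 2 := by
  have h1 := trace_mul_sq h Xᴴ
  rw [conjTranspose_conjTranspose] at h1
  rw [h1, Finset.sum_comm]
  refine Finset.sum_congr rfl fun k _ => Finset.sum_congr rfl fun l _ => ?_
  have h2 : Uᴴ * Xᴴ * U = (Uᴴ * X * U)ᴴ := by
    simp only [conjTranspose_mul, conjTranspose_conjTranspose, Matrix.mul_assoc]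
  rw [h2, conjTranspose_apply, norm_star]

/-- the spectral form with weight `1/(x+y)` controls every linear functional -/
theorem room_cs {C : Matrix ι ι ℂ} (hC : C.PosDef) (H Z : Matrix ι ι ℂ) :
    ‖(Hᴴ * Z).trace‖ ^ 2 ≤ ((C * (H * Hᴴ)).trace.re + (C * (Hᴴ * H)).trace.re) *
      dform (fun x y => 1 / (x + y)) hC.isHermitian Z := by
  have hD := dg_of_herm hC.isHermitian
  set U := (hC.isHermitian.eigenvectorUnitary : Matrix ι ι ℂ) with hU
  set p := hC.isHermitian.eigenvalues with hp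
  have hr : ∀ i, 0 < p i := hC.eigenvalues_pos
  have hsum : (C * (H * Hᴴ)).trace.re + (C * (Hᴴ * H)).trace.re =
      ∑ q : ι × ι, (p q.1 + p q.2) * ‖(Uᴴ * H * U) q.1 q.2‖ ^ 2 := by
    rw [trace_mul_sq hD, trace_mul_sq' hD, ← Finset.univ_product_univ, Finset.sum_product,
      ← Finset.sum_add_distrib]
    refine Finset.sum_congr rfl fun k _ => ?_
    rw [← Finset.sum_add_distrib]
    refine Finset.sum_congr rfl fun l _ => ?_
    ring
  have hdf : dform (fun x y => 1 / (x + y)) hC.isHermitian Z =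
      ∑ q : ι × ι, (1 / (p q.1 + p q.2)) * ‖(Uᴴ * Z * U) q.1 q.2‖ ^ 2 := by
    unfold dform
    rw [← Finset.univ_product_univ, Finset.sum_product]
  have h1 : ‖(Hᴴ * Z).trace‖ ≤ ∑ q : ι × ι, ‖(Uᴴ * H * U) q.1 q.2‖ * ‖(Uᴴ * Z * U) q.1 q.2‖ := by
    rw [trace_rot hD.tc, Finset.sum_comm, ← Finset.sum_product', Finset.univ_product_univ]
    refine (norm_sum_le _ _).trans (Finset.sum_le_sum fun q _ => le_of_eq ?_)
    have h2 : Uᴴ * Hᴴ * U = (Uᴴ * H * U)ᴴ := by
      simp only [conjTranspose_mul, conjTranspose_conjTranspose, Matrix.mul_assoc]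
    rw [norm_mul, h2, conjTranspose_apply, norm_star]
  have h2 : (∑ q : ι × ι, ‖(Uᴴ * H * U) q.1 q.2‖ * ‖(Uᴴ * Z * U) q.1 q.2‖) ^ 2 ≤
      (∑ q : ι × ι, (p q.1 + p q.2) * ‖(Uᴴ * H * U) q.1 q.2‖ ^ 2) *
      ∑ q : ι × ι, (1 / (p q.1 + p q.2)) * ‖(Uᴴ * Z * U) q.1 q.2‖ ^ 2 := by
    refine Finset.sum_sq_le_sum_mul_sum_of_sq_le_mul _ (fun q _ => ?_) (fun q _ => ?_)
      (fun q _ => le_of_eq ?_)
    · have := add_pos (hr q.1) (hr q.2)
      positivity
    · have := add_pos (hr q.1) (hr q.2)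
      positivity
    · have := (add_pos (hr q.1) (hr q.2)).ne'
      field_simp
  rw [hsum, hdf]
  exact (pow_le_pow_left₀ (norm_nonneg _) h1 2).trans h2

theorem trace_single_mul (k l : ι) (X : Matrix ι ι ℂ) :
    ((Matrix.single k l (1 : ℂ))ᴴ * X).trace = X k l := by
  rw [Matrix.conjTranspose_single, star_one, Matrix.trace_mul_comm, Matrix.trace]
  rw [Finset.sum_eq_single k]
  · rw [Matrix.diag_apply, Matrix.mul_single_apply_same, mul_one]
  · intro i _ hi
    rw [Matrix.diag_apply, Matrix.mul_single_apply_of_ne (hbj := hi)]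
  · intro hk
    exact absurd (Finset.mem_univ _) hk

theorem trace_mul_single (C : Matrix ι ι ℂ) (i : ι) :
    (C * Matrix.single i i (1 : ℂ)).trace = C i i := by
  rw [Matrix.trace, Finset.sum_eq_single i]
  · rw [Matrix.diag_apply, Matrix.mul_single_apply_same, mul_one]
  · intro j _ hj
    rw [Matrix.diag_apply, Matrix.mul_single_apply_of_ne (hbj := hj)]
  · intro hk
    exact absurd (Finset.mem_univ _) hk

/-- matrix elements from the spectral form with weight `1/(x+y)` -/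
theorem room_entry {C : Matrix ι ι ℂ} (hC : C.PosDef) (Z : Matrix ι ι ℂ) (k l : ι) :
    ‖Z k l‖ ^ 2 ≤ ((C k k).re + (C l l).re) *
      dform (fun x y => 1 / (x + y)) hC.isHermitian Z := by
  have h := room_cs hC (Matrix.single k l 1) Z
  rw [trace_single_mul] at h
  refine h.trans (le_of_eq ?_)
  rw [Matrix.conjTranspose_single, star_one, Matrix.single_mul_single_same,
    Matrix.single_mul_single_same, one_mul, trace_mul_single, trace_mul_single]

end

end Vale.Agent.P369.H183
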