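import Vale.Agent.P369.Bd3.B2

/-!
P369 (helper183): entropy of `C + e • 1` against the entropy of `C`.
-/

set_option linter.all false

namespace Vale.Agent.P369.H183

open Matrix
open Vale.Agent.P369V (ent)
open scoped ComplexOrder

noncomputable section

variable {ι : Type} [Fintype ι] [DecidableEq ι]

theorem cfc_add_smul_one {C : Matrix ι ι ℂ} (hC : C.IsHermitian) (e : ℝ) (f : ℝ → ℝ)
    (hf : Continuous f) : cfc f (C + (e : ℂ) • (1 : Matrix ι ι ℂ)) = cfc (fun x => f (x + e)) C := by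
  have hsa : IsSelfAdjoint C := hC
  have h1 : cfc (fun x : ℝ => x + e) C = C + (e : ℂ) • (1 : Matrix ι ι ℂ) := by
    have h2 := cfc_add_const (R := ℝ) e (fun x : ℝ => x) C (by fun_prop) hsa
    rw [cfc_id' ℝ C hsa] at h2
    rw [h2]
    congr 1
    ext i j
    rw [Matrix.algebraMap_matrix_apply, Matrix.smul_apply, Matrix.one_apply]
    split_ifs <;> simp
  rw [← h1]
  have h3 := cfc_comp (R := ℝ) f (fun x : ℝ => x + e) C hsa hf.continuousOn
    (by fun_prop)
  rw [← h3]
  rfl

theorem ent_add_smul_one {C : Matrix ι ι ℂ} (hC : C.IsHermitian) (e : ℝ) :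
    ent (C + (e : ℂ) • (1 : Matrix ι ι ℂ)) = ∑ i, Real.negMulLog (hC.eigenvalues i + e) := by
  unfold ent
  rw [cfc_add_smul_one hC e _ Real.continuous_negMulLog, P369V.b_trace_cfc hC]

theorem ent_eq_sum {C : Matrix ι ι ℂ} (hC : C.IsHermitian) :
    ent C = ∑ i, Real.negMulLog (hC.eigenvalues i) := P369V.b_trace_cfc hC _

theorem negMulLog_add_le {x e : ℝ} (hx : 0 ≤ x) (he : 0 ≤ e) :
    Real.negMulLog (x + e) ≤ Real.negMulLog x + Real.negMulLog e := by
  rcases hx.eq_or_lt with h | h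
  · rw [← h]; simp
  rcases he.eq_or_lt with h' | h'
  · rw [← h']; simp
  unfold Real.negMulLog
  have h1 : Real.log x ≤ Real.log (x + e) := Real.log_le_log h (by linarith)
  have h2 : Real.log e ≤ Real.log (x + e) := Real.log_le_log h' (by linarith)
  nlinarith [mul_le_mul_of_nonneg_left h1 h.le, mul_le_mul_of_nonneg_left h2 h'.le]

theorem le_negMulLog_add {x e : ℝ} (hx : 0 ≤ x) (hx1 : x ≤ 1) (he : 0 ≤ e) (he1 : e ≤ 1) :
    Real.negMulLog x - 2 * e ≤ Real.negMulLog (x + e) := by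
  rcases he.eq_or_lt with h' | h'
  · rw [← h']; simp
  rcases hx.eq_or_lt with h | h
  · rw [← h, Real.negMulLog_zero, zero_add]
    have := Real.negMulLog_nonneg he he1
    linarith
  unfold Real.negMulLog
  -- `log (x + e) ≤ log x + e / x` and `log (x + e) ≤ x + e - 1 ≤ 1`
  have hxe : 0 < x + e := by linarith
  have h1 : Real.log (x + e) - Real.log x ≤ e / x := by
    rw [← Real.log_div hxe.ne' h.ne']
    have h2 := Real.log_le_sub_one_of_pos (div_pos hxe h)
    have h3 : (x + e) / x - 1 = e / x := by field_simp; ring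
    linarith
  have h4 : x * (Real.log (x + e) - Real.log x) ≤ e := by
    have h5 := mul_le_mul_of_nonneg_left h1 h.le
    rwa [mul_div_cancel₀ _ h.ne'] at h5
  have h6 : Real.log (x + e) ≤ 1 := by
    have := Real.log_le_sub_one_of_pos hxe
    linarith
  have h7 : e * Real.log (x + e) ≤ e * 1 := mul_le_mul_of_nonneg_left h6 he
  nlinarith

theorem ent_add_smul_one_le {C : Matrix ι ι ℂ} (hC : C.PosSemidef) {e : ℝ} (he : 0 ≤ e) :
    ent (C + (e : ℂ) • (1 : Matrix ι ι ℂ)) ≤ ent C + Fintype.card ι * Real.negMulLog e := by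
  rw [ent_add_smul_one hC.1, ent_eq_sum hC.1]
  refine (Finset.sum_le_sum fun i _ => negMulLog_add_le (hC.eigenvalues_nonneg i) he).trans ?_
  rw [Finset.sum_add_distrib, Finset.sum_const, nsmul_eq_mul, Finset.card_univ]

theorem eigenvalues_le_one {C : Matrix ι ι ℂ} (hC : C.PosSemidef) (h1 : C.trace.re ≤ 1) (i : ι) :
    hC.1.eigenvalues i ≤ 1 := by
  have h3 : C.trace.re = ∑ j, hC.1.eigenvalues j := by
    rw [hC.1.trace_eq_sum_eigenvalues, Complex.re_sum]
    exact Finset.sum_congr rfl fun a _ => Complex.ofReal_re _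
  have h4 := Finset.single_le_sum (f := fun j => hC.1.eigenvalues j)
    (fun j _ => hC.eigenvalues_nonneg j) (Finset.mem_univ i)
  linarith

theorem le_ent_add_smul_one {C : Matrix ι ι ℂ} (hC : C.PosSemidef) (h1 : C.trace.re ≤ 1) {e : ℝ}
    (he : 0 ≤ e) (he1 : e ≤ 1) :
    ent C - 2 * e * Fintype.card ι ≤ ent (C + (e : ℂ) • (1 : Matrix ι ι ℂ)) := by
  rw [ent_add_smul_one hC.1, ent_eq_sum hC.1]
  have h := Finset.sum_le_sum fun (i : ι) (_ : i ∈ Finset.univ) =>
    le_negMulLog_add (hC.eigenvalues_nonneg i) (eigenvalues_le_one hC h1 i) he he1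
  rw [Finset.sum_sub_distrib, Finset.sum_const, nsmul_eq_mul, Finset.card_univ] at h
  linarith

end

end Vale.Agent.P369.H183
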